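import Mathlib
import Vale.Agent.Lib.P227L.Geom

/-!
# The local logarithmic Brunn-Minkowski inequality at all unconditional bodies of class `C²₊`
-/

open MeasureTheory
open Vale.Agent.Lib.P227L

namespace Vale.Agent.Results.P227.A000_LocalUnconditional

/-- Let `K ⊂ ℝⁿ` be a compact convex set invariant under all coordinate reflections whose support
function `h` is of class `C²₊`, and let `g` be any even function, homogeneous of degree one, of
class `C²` off the origin. Then `|K| > 0` and:

* (second variation form) with `a, b` the first two Taylor coefficients of `τ ↦ |W[h + τ g]|`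
  at `τ = 0` and `a'` the first Taylor coefficient of `τ ↦ |W[h + τ g² / h]|`, one has
  `|K| * (a' + 2 * b) ≤ a ^ 2`;
* (local form of the logarithmic Brunn-Minkowski inequality) for every `0 ≤ lam ≤ 1` there are
  `C` and `δ > 0` such that for `|t| ≤ δ` the function `h + t g` is again of class `C²₊`, it is the
  support function of its Wulff body, the Wulff body of the geometric mean has positive volume, and
  `(1 - lam) log |K| + lam log |W[h + t g]| ≤ log |W[h ^ (1 - lam) (h + t g) ^ lam]| + C |t| ^ 3`. -/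
theorem result {n : ℕ} (hn : 2 ≤ n) {K : Set (Fin n → ℝ)} {h g : (Fin n → ℝ) → ℝ}
    (hKc : IsCompact K) (hKv : Convex ℝ K) (hKu : ∀ i, ∀ x ∈ K, refl i x ∈ K)
    (hKh : IsSupportFn K h) (hh : IsC2Plus h) (hg : IsHom2 g) :
    0 < (volume K).toReal ∧
    (∃ a b a' b' : ℝ,
      T1 (fun τ => (volume (wulff fun u => h u + τ * g u)).toReal) (volume K).toReal a b ∧
      T1 (fun τ => (volume (wulff fun u => h u + τ * (g u ^ 2 / h u))).toReal) (volume K).toReal
        a' b' ∧
      (volume K).toReal * (a' + 2 * b) ≤ a ^ 2) ∧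
    ∀ lam : ℝ, 0 ≤ lam → lam ≤ 1 → ∃ C δ : ℝ, 0 < δ ∧ ∀ t : ℝ, |t| ≤ δ →
      IsC2Plus (fun u => h u + t * g u) ∧
      IsSupportFn (wulff fun u => h u + t * g u) (fun u => h u + t * g u) ∧
      0 < (volume (wulff fun u => h u + t * g u)).toReal ∧
      0 < (volume (wulff fun u => h u ^ (1 - lam) * (h u + t * g u) ^ lam)).toReal ∧
      (1 - lam) * Real.log (volume K).toReal
          + lam * Real.log (volume (wulff fun u => h u + t * g u)).toReal
        ≤ Real.log (volume (wulff fun u => h u ^ (1 - lam) * (h u + t * g u) ^ lam)).toReal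
          + C * |t| ^ 3 := by
  haveI : Nonempty (Fin n) := ⟨⟨0, by omega⟩⟩
  have hW : wulff h = K := wulff_eq_of_isSupportFn hKc.isClosed hKv hKh
  have hV : Vol h = (volume K).toReal := by rw [Vol, hW]
  have hi := hKh.refl_inv hKu
  refine ⟨hV ▸ hh.Vol_pos, ?_, ?_⟩
  · have e : (fun τ => (volume (wulff fun u => h u + τ * (g u ^ 2 / h u))).toReal)
        = fun τ => Vol (lin h (Vale.Agent.Lib.P227L.sq h g) τ) := by
      funext τ
      have e2 : (fun u => h u + τ * (g u ^ 2 / h u)) = lin h (Vale.Agent.Lib.P227L.sq h g) τ := by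
        funext u
        simp only [Vale.Agent.Lib.P227L.sq, lin, pow_two]
      rw [e2]
      rfl
    refine ⟨c1 h g, c2 h g, c1 h (Vale.Agent.Lib.P227L.sq h g), c2 h (Vale.Agent.Lib.P227L.sq h g),
      ?_, ?_, ?_⟩
    · rw [← hV]
      exact T1_lin hh hg
    · rw [← hV, e]
      exact T1_lin hh (isHom2_sq hh hg)
    · have := Th_nonpos hh hi hg
      rw [Th] at this
      rw [← hV]
      linarith
  · intro lam h0 h1
    obtain ⟨C, δ, hδ, hC⟩ := local_log_bm hh hi hg h0 h1
    obtain ⟨ρ, hρ, hp⟩ := exists_lin_plus hh hg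
    refine ⟨C, min δ ρ, lt_min hδ hρ, fun t ht => ?_⟩
    have hl := hp t (ht.trans (min_le_right _ _))
    obtain ⟨h2, h3⟩ := hC t (ht.trans (min_le_left _ _))
    refine ⟨hl, hl.isSupportFn, hl.Vol_pos, h2, ?_⟩
    rw [← hV]
    exact h3

end Vale.Agent.Results.P227.A000_LocalUnconditional
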