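import Mathlib
import Vale.Agent.Lib.P227.DefsTree
import Vale.Agent.Lib.P227.TreeLq

/-!
# The logarithmic Minkowski inequality at all planar-norm trees, in particular at `ℓ_q` balls
-/

open MeasureTheory
open Vale.Agent.Lib.P227

namespace Vale.Agent.Results.P227.A0_TreeLogMinkowski

/-- The `ℓ_q` norms, `q ≥ 1`, are tree norms, and `max |s| |t|`, `|s| + |t|` are allowed planar
norms (so the Hanner norms are tree norms). For every tree norm `N` on `ℝⁿ`, with unit ball `B`:
`B` is an origin-symmetric convex body, `N` is differentiable almost everywhere, the logarithmic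
Minkowski inequality holds at `B` with the normal map `∇N` against every compact set of positive
volume, and the logarithmic Brunn-Minkowski inequality holds for all origin-symmetric convex bodies
`K`, `L` whose logarithmic combination is a linear image of `B`. -/
theorem result :
    (∀ q : ℝ, 1 ≤ q → ∀ n : ℕ, 0 < n → TreeNorm n (lqNorm q n)) ∧
    IsPlanarNorm (fun s t => max |s| |t|) ∧
    IsPlanarNorm (fun s t => |s| + |t|) ∧
    ∀ (n : ℕ) (N : (Fin n → ℝ) → ℝ), TreeNorm n N →
      IsSymBody (unitBall N) ∧
      (∀ᵐ x : EuclideanSpace ℝ (Fin n), DifferentiableAt ℝ N x.ofLp) ∧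
      LogMinkowskiIntegral (unitBall N) (gradVec N) ∧
      LogBMWhenCombinationIsImageOf (unitBall N) :=
  ⟨fun _ hq _ hn => treeNorm_lq hq hn, isPlanarNorm_max, isPlanarNorm_sum, fun _ _ h => h.main.2⟩

end Vale.Agent.Results.P227.A0_TreeLogMinkowski
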