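import Mathlib
import Vale.Agent.Lib.P227.Defs
import Vale.Agent.Lib.P227.Q1

/-!
# The logarithmic Minkowski inequality at Hanner polytopes
-/

open MeasureTheory
open Vale.Agent.Lib.P227

namespace Vale.Agent.Results.P227.A_HannerLogMinkowski

/-- For every Hanner polytope `T.ball`, given by a tree `T`: the weights form a probability vector,
the polytope is the intersection of the slabs of its facet normals, the logarithmic Minkowski
inequality holds at it against every compact set `L` (no symmetry needed for `L`), and the
logarithmic Brunn-Minkowski inequality holds for all origin-symmetric convex bodies `K`, `L`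
whose logarithmic combination is a linear image of `T.ball`. -/
theorem result (T : HTree) :
    ((∀ j, 0 ≤ T.weight j) ∧ ∑ j, T.weight j = 1) ∧
    T.ball = {x | ∀ j, |inner ℝ (T.normalVec j) x| ≤ 1} ∧
    LogMinkowskiAt T.ball T.normalVec T.weight ∧
    LogBMWhenCombinationIsImageOf T.ball := by
  have hg := good T
  refine ⟨⟨hg.c_nonneg, hg.c_sum⟩, ?_, ?_, ?_⟩
  · ext x
    have := norm_le_iff_of hg.abs_le hg.exists_eq x.ofLp 1
    simp only [HTree.ball, HTree.normalVec, Set.mem_ofPred_eq, inner_toLp]
    exact this
  · intro L hL
    have h := hg.logMinkowski hL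
    have hdim : Module.finrank ℝ (EuclideanSpace ℝ T.coord) = T.dim := by
      rw [finrank_euclideanSpace, hg.card]
    rw [hdim]
    exact h
  · intro K L hK hL lam h0 h1 A hQ
    exact hg.q1 hK hL h0 h1 A hQ

end Vale.Agent.Results.P227.A_HannerLogMinkowski
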